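import Crest.Statements.S0166
import Crest.Agent.AsyLib.Moduli
import Crest.Agent.AsyLib.Diamond
import Crest.Agent.AsyLib.Reflexive
import Crest.Agent.AsyLib.LpSum
import Crest.Agent.S0166Lib.Block
import Crest.Agent.S0166Lib.Wit

set_option autoImplicit false
open Crest Crest.AnalysisR

namespace Crest.Agent.S0166

open Crest.Agent.AsyLib Crest.Agent.S0166Lib

theorem wit_MP : MP WitT := MP_lp_two (fun n => MP_blk n)

theorem sqrt_le_a (t : ℝ) : Real.sqrt (1 + t ^ 2 / 12) - 1 ≤ Real.sqrt (1 + t ^ 2 / 4) - 1 := by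
  have : Real.sqrt (1 + t ^ 2 / 12) ≤ Real.sqrt (1 + t ^ 2 / 4) :=
    Real.sqrt_le_sqrt (by nlinarith [sq_nonneg t])
  linarith

theorem sqrt_le_b (t : ℝ) :
    (Real.sqrt (1 + t ^ 2 / 4) - 1) / 2 ≤ Real.sqrt (1 + t ^ 2 / 4) - 1 := by
  have : 1 ≤ Real.sqrt (1 + t ^ 2 / 4) := by
    rw [show (1 : ℝ) = Real.sqrt 1 by simp]
    exact Real.sqrt_le_sqrt (by nlinarith [sq_nonneg t])
  linarith

/-- There is a real Banach space (RealBanach record) that is separable, infinite-dimensional and reflexive, whose given norm has at every t > 0 averaged midpoint asymptotic modulus at least √(1 + t²/12) - 1 and at least (√(1 + t²/4) - 1)/2 and maximum-based midpoint modulus at least √(1 + t²/4) - 1, on which no equivalent norm is asymptotically uniformly convex, and in which for every k every map of the depth-k countably branching diamond graph of distortion at most D has 1 + k/4 ≤ D². -/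
theorem result :
    ∃ E : Crest.AnalysisR.RealBanach, E.IsSeparableInfiniteDim ∧ E.IsReflexive ∧
      (∀ t : ℝ, 0 < t → E.MidpointModulusGE E.norm t (Real.sqrt (1 + t ^ 2 / 12) - 1) ∧
        E.MidpointModulusGE E.norm t ((Real.sqrt (1 + t ^ 2 / 4) - 1) / 2) ∧
        E.MaxMidpointModulusGE E.norm t (Real.sqrt (1 + t ^ 2 / 4) - 1)) ∧
      (∀ N : E.X → ℝ, E.IsEquivNorm N → ¬ E.IsAUC N) ∧
      ∀ (k : ℕ) (f : Crest.AnalysisR.DiamondVertex k → E.X) (D : ℝ),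
        E.HasDistortionLE k f D → 1 + (k : ℝ) / 4 ≤ D ^ 2 := by
  have hsep : TopologicalSpace.SeparableSpace WitT ∧ ¬ FiniteDimensional ℝ WitT :=
    ⟨wit_separable, wit_not_finiteDimensional⟩
  have hrefl : Function.Surjective (NormedSpace.inclusionInDoubleDual ℝ WitT) :=
    reflexive_lp_two (fun n => blk_reflexive n)
  have hmid : ∀ t : ℝ, 0 < t → ∀ c : ℝ, c ≤ Real.sqrt (1 + t ^ 2 / 4) - 1 →
      ∀ x : WitT, ‖x‖ = 1 → ∀ η : ℝ, 0 < η → ∃ F : Set WitT, IsCofT F ∧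
        ∀ y ∈ F, ‖y‖ = 1 → c - η ≤ (‖x + t • y‖ + ‖x - t • y‖) / 2 - 1 := by
    intro t ht c hc x hx η hη
    obtain ⟨F, hF, h⟩ := wit_MP.midpointGE ht x hx hη
    exact ⟨F, hF, fun y hy hy1 => by linarith [h y hy hy1]⟩
  have hmax : ∀ t : ℝ, 0 < t →
      ∀ x : WitT, ‖x‖ = 1 → ∀ η : ℝ, 0 < η → ∃ F : Set WitT, IsCofT F ∧
        ∀ y ∈ F, ‖y‖ = 1 →
          Real.sqrt (1 + t ^ 2 / 4) - 1 - η ≤ max ‖x + t • y‖ ‖x - t • y‖ - 1 :=
    fun t ht x hx η hη => wit_MP.maxGE ht x hx hη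
  have hno : ∀ N : WitT → ℝ,
      ((∀ x y : WitT, N (x + y) ≤ N x + N y) ∧
        (∀ (a : ℝ) (x : WitT), N (a • x) = abs a * N x) ∧
        ∃ a b : ℝ, 0 < a ∧ ∀ x : WitT, a * ‖x‖ ≤ N x ∧ N x ≤ b * ‖x‖) →
      ¬ (∀ t : ℝ, 0 < t → ∃ c : ℝ, 0 < c ∧ ∀ x : WitT, N x = 1 →
        ∃ F : Set WitT, IsCofT F ∧ ∀ y ∈ F, N y = 1 → c ≤ N (x + t • y) - 1) :=
    fun N hN hA => wit_noAUC N hN hA
  have hdia : ∀ (k : ℕ) (f : DiamondVertex k → WitT) (D : ℝ),
      (∃ s : ℝ, 0 < s ∧ ∀ u v : DiamondVertex k,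
        s * (diamondDist k u v : ℝ) ≤ ‖f u - f v‖ ∧
          ‖f u - f v‖ ≤ D * s * (diamondDist k u v : ℝ)) → 1 + (k : ℝ) / 4 ≤ D ^ 2 := by
    rintro k f D ⟨s, hs, hf⟩
    exact diamond_distortion_of_MP wit_MP k f D s hs hf
  exact ⟨Wit, hsep, hrefl,
    fun t ht => ⟨hmid t ht _ (sqrt_le_a t), hmid t ht _ (sqrt_le_b t), hmax t ht⟩, hno, hdia⟩

end Crest.Agent.S0166
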