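import Crest.Statements.S0167
import Crest.Agent.AsyLib.Cof
import Crest.Agent.S0167Lib.Upper
import Crest.Agent.S0167Lib.Lower

set_option autoImplicit false
open Crest Crest.AnalysisR

namespace Crest.Agent.S0167

open Crest.Agent.AsyLib Crest.Agent.S0167Lib

/-- Let E be an infinite-dimensional closed subspace of the real L¹ of a probability space whose closed unit ball is totally bounded for convergence in measure and whose norm has the Daugavet property. Then at every unit x ∈ E and every t > 0 the averaged midpoint quantity sup_F inf_y ((‖x+ty‖+‖x-ty‖)/2 - 1) equals max(t/2, t-1) and the one-sided one sup_F inf_y (‖x+ty‖ - 1) equals max(0, t-2), as matching lower and upper bounds, and E admits no equivalent asymptotically uniformly convex norm. -/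
theorem result (Ω : Type) [MeasurableSpace Ω] (P : MeasureTheory.Measure Ω) [MeasureTheory.IsProbabilityMeasure P]
    (E : Submodule ℝ (MeasureTheory.Lp ℝ 1 P)) (hcl : IsClosed (E : Set (MeasureTheory.Lp ℝ 1 P)))
    (hinf : ¬ FiniteDimensional ℝ E)
    (htb : Crest.AnalysisR.L1Subspace.UnitBallTotallyBoundedInMeasure P E)
    (hD : Crest.AnalysisR.L1Subspace.HasDaugavetProperty E) :
    (∀ t : ℝ, 0 < t →
      (Crest.AnalysisR.L1Subspace.toRealBanach P E hcl).MidpointModulusGE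
          (Crest.AnalysisR.L1Subspace.toRealBanach P E hcl).norm t (max (t / 2) (t - 1)) ∧
        (Crest.AnalysisR.L1Subspace.toRealBanach P E hcl).MidpointModulusLE
          (Crest.AnalysisR.L1Subspace.toRealBanach P E hcl).norm t (max (t / 2) (t - 1)) ∧
        (Crest.AnalysisR.L1Subspace.toRealBanach P E hcl).OneSidedModulusGE
          (Crest.AnalysisR.L1Subspace.toRealBanach P E hcl).norm t (max 0 (t - 2)) ∧
        (Crest.AnalysisR.L1Subspace.toRealBanach P E hcl).OneSidedModulusLE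
          (Crest.AnalysisR.L1Subspace.toRealBanach P E hcl).norm t (max 0 (t - 2))) ∧
      ∀ N : E → ℝ, (Crest.AnalysisR.L1Subspace.toRealBanach P E hcl).IsEquivNorm N →
        ¬ (Crest.AnalysisR.L1Subspace.toRealBanach P E hcl).IsAUC N := by
  -- (1) midpoint lower bound
  have h1 : ∀ t : ℝ, 0 < t → ∀ x : E, ‖x‖ = 1 → ∀ η : ℝ, 0 < η → ∃ F : Set E, IsCofT F ∧
      ∀ y ∈ F, ‖y‖ = 1 → max (t / 2) (t - 1) - η ≤ (‖x + t • y‖ + ‖x - t • y‖) / 2 - 1 := by
    intro t ht x hx η hη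
    obtain ⟨F, hF, h⟩ := L1_midpoint_lower P E htb x hx ht hη
    refine ⟨F, hF, fun y hy hy1 => ?_⟩
    have ha := h y hy hy1
    have hb : 2 * t ≤ ‖x + t • y‖ + ‖x - t • y‖ := by
      have h2 : ‖(x + t • y) - (x - t • y)‖ ≤ ‖x + t • y‖ + ‖x - t • y‖ := norm_sub_le _ _
      have h3 : (x + t • y) - (x - t • y) = (2 * t) • y := by
        rw [two_mul, add_smul]; abel
      rw [h3, norm_smul, hy1, Real.norm_eq_abs, abs_of_pos (by linarith)] at h2
      linarith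
    rcases max_cases (t / 2) (t - 1) with ⟨h4, -⟩ | ⟨h4, -⟩ <;> rw [h4] <;> linarith
  -- (2) midpoint upper bound
  have h2 : ∀ t : ℝ, 0 < t → ∀ x : E, ‖x‖ = 1 → ∀ F : Set E, IsCofT F → ∀ η : ℝ, 0 < η →
      ∃ y ∈ F, ‖y‖ = 1 ∧ (‖x + t • y‖ + ‖x - t • y‖) / 2 - 1 ≤ max (t / 2) (t - 1) + η :=
    fun t ht x hx F hF η hη => daugavet_direction_avg hD x hx hF ht hη
  -- (3) one-sided lower bound
  have h3 : ∀ t : ℝ, 0 < t → ∀ x : E, ‖x‖ = 1 → ∀ η : ℝ, 0 < η → ∃ F : Set E, IsCofT F ∧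
      ∀ y ∈ F, ‖y‖ = 1 → max 0 (t - 2) - η ≤ ‖x + t • y‖ - 1 := by
    intro t ht x hx η hη
    obtain ⟨F, hF, h⟩ := exists_isCofT_norming x
    refine ⟨F, hF, fun y hy hy1 => ?_⟩
    have ha := h (t • y) (hF.smul_mem t hy)
    have hb : t - 1 ≤ ‖x + t • y‖ := by
      have h2 : ‖t • y‖ - ‖x‖ ≤ ‖x + t • y‖ := by
        have := norm_sub_norm_le (t • y) (-x)
        rw [norm_neg, sub_neg_eq_add, add_comm (t • y) x] at this
        exact this
      rw [norm_smul, hy1, hx, Real.norm_eq_abs, abs_of_pos ht] at h2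
      linarith
    rw [hx] at ha
    rcases max_cases (0 : ℝ) (t - 2) with ⟨h4, -⟩ | ⟨h4, -⟩ <;> rw [h4] <;> linarith
  -- (4) one-sided upper bound
  have h4 : ∀ t : ℝ, 0 < t → ∀ x : E, ‖x‖ = 1 → ∀ F : Set E, IsCofT F → ∀ η : ℝ, 0 < η →
      ∃ y ∈ F, ‖y‖ = 1 ∧ ‖x + t • y‖ - 1 ≤ max 0 (t - 2) + η := by
    intro t ht x hx F hF η hη
    obtain ⟨y, hyF, hy1, h⟩ := daugavet_direction hD x hx hF ht hη
    exact ⟨y, hyF, hy1, by linarith⟩
  -- (5) no AUC renorming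
  have h5 : ∀ N : E → ℝ,
      ((∀ x y : E, N (x + y) ≤ N x + N y) ∧ (∀ (a : ℝ) (x : E), N (a • x) = abs a * N x) ∧
        ∃ a b : ℝ, 0 < a ∧ ∀ x : E, a * ‖x‖ ≤ N x ∧ N x ≤ b * ‖x‖) →
      ¬ (∀ t : ℝ, 0 < t → ∃ c : ℝ, 0 < c ∧ ∀ x : E, N x = 1 →
        ∃ F : Set E, IsCofT F ∧ ∀ y ∈ F, N y = 1 → c ≤ N (x + t • y) - 1) :=
    fun N hN hA => daugavet_noAUC hD N hN hA
  exact ⟨fun t ht => ⟨h1 t ht, h2 t ht, h3 t ht, h4 t ht⟩, h5⟩

end Crest.Agent.S0167
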