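import Crest.Statements.S0168
import Crest.Agent.AsyLib.Cof
import Crest.Agent.AsyLib.NoAUC
import Crest.Agent.AsyLib.Moduli
import Crest.Agent.PotLib.Chain
import Crest.Agent.PotLib.Midpoint

set_option autoImplicit false
open Crest Crest.AnalysisR

namespace Crest.Agent.S0168

open Crest.Agent.AsyLib Crest.Agent.PotLib Crest.AnalysisR.TreePotential

/-- No equivalent norm on a tree potential space is asymptotically uniformly convex. -/
theorem noAUC_model (m : PotentialModel) (N : ↥(modelSpace m) → ℝ)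
    (hN : (∀ x y : ↥(modelSpace m), N (x + y) ≤ N x + N y) ∧
      (∀ (a : ℝ) (x : ↥(modelSpace m)), N (a • x) = abs a * N x) ∧
      ∃ a b : ℝ, 0 < a ∧ ∀ x : ↥(modelSpace m), a * ‖x‖ ≤ N x ∧ N x ≤ b * ‖x‖)
    (hAUC : ∀ t : ℝ, 0 < t → ∃ c : ℝ, 0 < c ∧ ∀ x : ↥(modelSpace m), N x = 1 →
      ∃ F : Set ↥(modelSpace m), IsCofT F ∧ ∀ y ∈ F, N y = 1 → c ≤ N (x + t • y) - 1) :
    False := by
  refine noAUC_of_steps 1 1 one_pos {x | ∃ r : List ℕ, r ≠ [] ∧ x = chain m r}
    ⟨chain m [0], ⟨[0], by simp, rfl⟩, one_le_norm_chain m [0] (by simp)⟩ ?_ ?_ N hN hAUC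
  · rintro x ⟨r, -, rfl⟩
    exact norm_chain_le m r
  · rintro x ⟨r, -, rfl⟩ F hF ε hε
    obtain ⟨n₀, hn₀⟩ := hF.exists_near_of_upperTwo (upperTwo_siblings m r) hε
    obtain ⟨y', hy'F, hy'⟩ := hn₀ n₀ le_rfl
    exact ⟨cv m (n₀ :: r), y', hy'F, hy', one_le_norm_cv m (n₀ :: r) (by simp),
      n₀ :: r, by simp, rfl⟩

/-- For each of the four bounded-potential coordinate models on the countably branching tree (rootless sibling, rooted sibling, antichain, global), the generated space, namely the closure of the span of the coordinate vectors in the supremum norm over the model's tests, is separable and infinite-dimensional, its norm has at every unit centre and every 0 < t < 1 averaged midpoint asymptotic quantity at least √(1 + t²/4) - 1, and no equivalent norm on it is asymptotically uniformly convex. -/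
theorem result
    (m : Crest.AnalysisR.TreePotential.PotentialModel) :
    (Crest.AnalysisR.TreePotential.modelBanach m).IsSeparableInfiniteDim ∧
      (∀ t : ℝ, 0 < t → t < 1 →
        (Crest.AnalysisR.TreePotential.modelBanach m).MidpointModulusGE
          (Crest.AnalysisR.TreePotential.modelBanach m).norm t (Real.sqrt (1 + t ^ 2 / 4) - 1)) ∧
      ∀ N : (Crest.AnalysisR.TreePotential.modelBanach m).X → ℝ,
        (Crest.AnalysisR.TreePotential.modelBanach m).IsEquivNorm N →
          ¬ (Crest.AnalysisR.TreePotential.modelBanach m).IsAUC N := by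
  have hsep : TopologicalSpace.SeparableSpace ↥(modelSpace m) ∧
      ¬ FiniteDimensional ℝ ↥(modelSpace m) :=
    ⟨separable_model m, not_finiteDimensional_of_upperTwo (upperTwo_siblings m []) one_pos
      (fun n => one_le_norm_cv m [n] (by simp))⟩
  refine ⟨hsep, ?_, ?_⟩
  · intro t ht _
    have key : ∀ x : ↥(modelSpace m), ‖x‖ = 1 → ∀ η : ℝ, 0 < η →
        ∃ F : Set ↥(modelSpace m), IsCofT F ∧ ∀ y ∈ F, ‖y‖ = 1 →
          Real.sqrt (1 + t ^ 2 / 4) - 1 - η ≤ (‖x + t • y‖ + ‖x - t • y‖) / 2 - 1 :=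
      fun x hx η hη => (MP_model m).midpointGE ht x hx hη
    exact key
  · have key : ∀ N : ↥(modelSpace m) → ℝ,
        ((∀ x y : ↥(modelSpace m), N (x + y) ≤ N x + N y) ∧
          (∀ (a : ℝ) (x : ↥(modelSpace m)), N (a • x) = abs a * N x) ∧
          ∃ a b : ℝ, 0 < a ∧ ∀ x : ↥(modelSpace m), a * ‖x‖ ≤ N x ∧ N x ≤ b * ‖x‖) →
        ¬ (∀ t : ℝ, 0 < t → ∃ c : ℝ, 0 < c ∧ ∀ x : ↥(modelSpace m), N x = 1 →
          ∃ F : Set ↥(modelSpace m), IsCofT F ∧ ∀ y ∈ F, N y = 1 → c ≤ N (x + t • y) - 1) :=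
      fun N hN hA => noAUC_model m N hN hA
    exact key

end Crest.Agent.S0168
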