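import Crest.Statements.S0169
import Crest.Agent.AsyLib.Cof
import Crest.Agent.AsyLib.NoAUC
import Crest.Agent.S0169Lib.Cascade

set_option autoImplicit false
open MeasureTheory ProbabilityTheory
open Crest Crest.AnalysisR

namespace Crest.Agent.S0169

open Crest.Agent.AsyLib Crest.Agent.S0169Lib Crest.AnalysisR.TreeProduct

/-- Let ν be a Borel probability law on ℝ carried by (0,∞), not a point mass, with mean 1 and finite second moment, and W an independent family of real random variables on a probability space indexed by the vertices of the countably branching tree (finite lists of naturals; root [], parent of a :: v is v), each non-root one with law ν. Then the closed linear span in L¹ of the path products ∏_{root ≺ u ≼ v} W_u is infinite-dimensional and has no equivalent asymptotically uniformly convex norm. -/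
theorem result (ν : Measure ℝ) [IsProbabilityMeasure ν] (hpos : ν (Set.Ioi 0) = 1)
    (hnc : ∀ c : ℝ, ν ≠ Measure.dirac c) (hmean : ∫ x, x ∂ν = 1)
    (hm2 : Integrable (fun x : ℝ => x ^ 2) ν)
    (Ω : Type) [MeasurableSpace Ω] (μ : Measure Ω) [IsProbabilityMeasure μ]
    (W : List ℕ → Ω → ℝ) (hW : Crest.AnalysisR.TreeProduct.IsRealization ν μ W) :
    ¬ FiniteDimensional ℝ (Crest.AnalysisR.TreeProduct.productSpan μ W) ∧
      ∀ N : (Crest.AnalysisR.TreeProduct.spanBanach μ W).X → ℝ,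
        (Crest.AnalysisR.TreeProduct.spanBanach μ W).IsEquivNorm N →
          ¬ (Crest.AnalysisR.TreeProduct.spanBanach μ W).IsAUC N := by
  obtain ⟨pp, κ, hκ, hpp1, hinc, hup⟩ := exists_pp ν hpos hnc hmean hm2 Ω μ W hW
  have hfin : ¬ FiniteDimensional ℝ ↥(productSpan μ W) := by
    obtain ⟨C, hC⟩ := hup []
    exact not_finiteDimensional_of_upperTwo hC hκ (fun n => (hinc [] n).ge)
  have hno : ∀ N : ↥(productSpan μ W) → ℝ,
      ((∀ x y : ↥(productSpan μ W), N (x + y) ≤ N x + N y) ∧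
        (∀ (a : ℝ) (x : ↥(productSpan μ W)), N (a • x) = abs a * N x) ∧
        ∃ a b : ℝ, 0 < a ∧ ∀ x : ↥(productSpan μ W), a * ‖x‖ ≤ N x ∧ N x ≤ b * ‖x‖) →
      ¬ (∀ t : ℝ, 0 < t → ∃ c : ℝ, 0 < c ∧ ∀ x : ↥(productSpan μ W), N x = 1 →
        ∃ F : Set ↥(productSpan μ W), IsCofT F ∧
          ∀ y ∈ F, N y = 1 → c ≤ N (x + t • y) - 1) := by
    intro N hN hA
    refine noAUC_of_steps 1 (min κ 1) (lt_min hκ one_pos) {x | ∃ v : List ℕ, x = pp v}
      ⟨pp [], ⟨[], rfl⟩, by rw [hpp1]; exact min_le_right _ _⟩ ?_ ?_ N hN hA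
    · rintro x ⟨v, rfl⟩
      exact (hpp1 v).le
    · rintro x ⟨v, rfl⟩ F hF ε hε
      obtain ⟨C, hC⟩ := hup v
      obtain ⟨n₀, hn₀⟩ := hF.exists_near_of_upperTwo hC hε
      obtain ⟨y', hy'F, hy'⟩ := hn₀ n₀ le_rfl
      refine ⟨pp (n₀ :: v) - pp v, y', hy'F, hy', ?_, n₀ :: v, by abel⟩
      rw [hinc v n₀]
      exact min_le_left _ _
  exact ⟨hfin, hno⟩

end Crest.Agent.S0169
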