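import Crest.Statements.S0223
-- import your own Crest.Agent.* helpers here

set_option autoImplicit false
open Crest Crest.ProbabilityR

namespace Crest.Agent.S0223

open Crest.ProbabilityR.Shuffle

theorem stepPos_injective (m : ℕ) (c : Fin m → Bool) : Function.Injective (stepPos m c) := by
  intro x y h
  have hx := x.isLt
  have hy := y.isLt
  have hm : 0 < m := by omega
  have h1 : (stepPos m c x).val = (stepPos m c y).val := congrArg Fin.val h
  simp only [stepPos] at h1
  have hxm : x.val % m < m := Nat.mod_lt _ hm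
  have hym : y.val % m < m := Nat.mod_lt _ hm
  set bx : ℕ := (if xor (decide (m ≤ x.val)) (c ⟨x.val % m, Nat.mod_lt _ (by omega)⟩) then 1 else 0) with hbx
  set by' : ℕ := (if xor (decide (m ≤ y.val)) (c ⟨y.val % m, Nat.mod_lt _ (by omega)⟩) then 1 else 0) with hby
  have hbx1 : bx ≤ 1 := by rw [hbx]; split <;> omega
  have hby1 : by' ≤ 1 := by rw [hby]; split <;> omega
  have hmod : x.val % m = y.val % m := by omega
  have hb : bx = by' := by omega
  have hc : c ⟨x.val % m, Nat.mod_lt _ (by omega)⟩ = c ⟨y.val % m, Nat.mod_lt _ (by omega)⟩ := by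
    congr 1
    exact Fin.ext hmod
  have hle : (m ≤ x.val) ↔ (m ≤ y.val) := by
    rw [hbx, hby, hc] at hb
    by_cases h1 : m ≤ x.val <;> by_cases h2 : m ≤ y.val <;> simp [h1, h2] at hb ⊢
    all_goals (cases hcc : c ⟨y.val % m, Nat.mod_lt _ (by omega)⟩ <;> simp [hcc] at hb)
  apply Fin.ext
  have e1 := Nat.div_add_mod x.val m
  have e2 := Nat.div_add_mod y.val m
  have d1 : x.val / m < 2 := by
    rw [Nat.div_lt_iff_lt_mul hm]; omega
  have d2 : y.val / m < 2 := by
    rw [Nat.div_lt_iff_lt_mul hm]; omega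
  have k1 : m ≤ x.val ↔ 1 ≤ x.val / m := by
    rw [Nat.le_div_iff_mul_le hm]; simp
  have k2 : m ≤ y.val ↔ 1 ≤ y.val / m := by
    rw [Nat.le_div_iff_mul_le hm]; simp
  have hdiv : x.val / m = y.val / m := by
    by_cases h1 : m ≤ x.val
    · have h2 := hle.mp h1
      have a1 := k1.mp h1
      have a2 := k2.mp h2
      have hx1 : x.val / m = 1 := le_antisymm (Nat.lt_succ_iff.mp d1) a1
      have hy1 : y.val / m = 1 := le_antisymm (Nat.lt_succ_iff.mp d2) a2
      rw [hx1, hy1]
    · have h2 : ¬ m ≤ y.val := fun h => h1 (hle.mpr h)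
      have hx0 : x.val / m = 0 := Nat.lt_one_iff.mp (not_le.mp (fun h => h1 (k1.mpr h)))
      have hy0 : y.val / m = 0 := Nat.lt_one_iff.mp (not_le.mp (fun h => h2 (k2.mpr h)))
      rw [hx0, hy0]
  calc x.val = m * (x.val / m) + x.val % m := e1.symm
    _ = m * (y.val / m) + y.val % m := by rw [hdiv, hmod]
    _ = y.val := e2

theorem iterPos_injective (m : ℕ) : ∀ (t : ℕ) (cs : Fin t → Fin m → Bool),
    Function.Injective (iterPos m t cs)
  | 0, _ => fun x y h => h
  | t + 1, cs => by
    intro x y h
    simp only [iterPos] at h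
    exact iterPos_injective m t _ (stepPos_injective m _ h)

/-- For a deck of `2 * 2 ^ d` cards and every number `t` of shuffles, the total variation distance between the law of the arrangement of the deck and the uniform law on all arrangements is at least `1 - 2 ^ (2 ^ d * t) / (2 * 2 ^ d)!`. -/
theorem result (d t : ℕ) :
    1 - (2 : ℝ) ^ (2 ^ d * t) / ((2 * 2 ^ d).factorial : ℝ)
      ≤ Crest.ProbabilityR.Shuffle.tvFromUniform (2 ^ d) t := by
  classical
  set m : ℕ := 2 ^ d with hm
  -- the permutation produced by a bit table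
  let σ : (Fin t → Fin m → Bool) → Equiv.Perm (Fin (2 * m)) := fun cs =>
    Equiv.ofBijective (iterPos m t cs)
      (Finite.injective_iff_bijective.mp (iterPos_injective m t cs))
  have hσ : ∀ cs (g : Equiv.Perm (Fin (2 * m))), iterPos m t cs = ⇑g ↔ σ cs = g := by
    intro cs g
    constructor
    · intro h
      apply Equiv.ext
      intro x
      simp only [σ, Equiv.ofBijective_apply]
      rw [h]
    · intro h
      rw [← h]
      rfl
  -- the counts
  let a : Equiv.Perm (Fin (2 * m)) → ℕ := fun g =>
    (Finset.univ.filter (fun cs : Fin t → Fin m → Bool => σ cs = g)).card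
  have hprob : ∀ g : Equiv.Perm (Fin (2 * m)),
      Crest.FinProb.uniformProb {cs : Fin t → Fin m → Bool | iterPos m t cs = ⇑g}
        = (a g : ℝ) / (Fintype.card (Fin t → Fin m → Bool) : ℝ) := by
    intro g
    unfold Crest.FinProb.uniformProb
    congr 2
    apply Finset.card_bij (fun cs _ => cs)
    · intro cs hcs
      simp only [Finset.mem_filter, Finset.mem_univ, true_and, Set.mem_ofPred_eq] at hcs ⊢
      exact (hσ cs g).mp hcs
    · intro _ _ _ _ h; exact h
    · intro cs hcs
      refine ⟨cs, ?_, rfl⟩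
      simp only [Finset.mem_filter, Finset.mem_univ, true_and, Set.mem_ofPred_eq] at hcs ⊢
      exact (hσ cs g).mpr hcs
  have hK : (Fintype.card (Fin t → Fin m → Bool) : ℝ) = (2 : ℝ) ^ (2 ^ d * t) := by
    simp only [Fintype.card_fun, Fintype.card_bool, Fintype.card_fin]
    rw [← hm]
    push_cast
    rw [← pow_mul]
  have hN : (Fintype.card (Equiv.Perm (Fin (2 * m))) : ℝ) = ((2 * m).factorial : ℝ) := by
    rw [Fintype.card_perm, Fintype.card_fin]
  set K : ℝ := (2 : ℝ) ^ (2 ^ d * t) with hKdef
  set N : ℝ := ((2 * m).factorial : ℝ) with hNdef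
  have hKpos : 0 < K := by positivity
  have hNpos : 0 < N := by
    rw [hNdef]; exact_mod_cast Nat.factorial_pos _
  -- total count
  have hsum : (∑ g : Equiv.Perm (Fin (2 * m)), (a g : ℝ)) = K := by
    rw [← hK]
    have := Finset.card_eq_sum_card_fiberwise (f := σ)
      (s := (Finset.univ : Finset (Fin t → Fin m → Bool)))
      (t := (Finset.univ : Finset (Equiv.Perm (Fin (2 * m))))) (fun x _ => Finset.mem_univ _)
    rw [Finset.card_univ] at this
    rw [this]
    push_cast
    rfl
  -- image
  set A : Finset (Equiv.Perm (Fin (2 * m))) := Finset.univ.image σ with hA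
  have hAcard : (A.card : ℝ) ≤ K := by
    rw [← hK]
    have := Finset.card_image_le (s := (Finset.univ : Finset (Fin t → Fin m → Bool))) (f := σ)
    rw [Finset.card_univ] at this
    exact_mod_cast this
  have ha0 : ∀ g, g ∉ A → a g = 0 := by
    intro g hg
    simp only [a, Finset.card_eq_zero]
    apply Finset.filter_eq_empty_iff.mpr
    intro cs _ h
    apply hg
    rw [hA, Finset.mem_image]
    exact ⟨cs, Finset.mem_univ _, h⟩
  -- pointwise bound
  have hpt : ∀ g : Equiv.Perm (Fin (2 * m)),
      ((a g : ℝ) / K - 1 / N) + (if g ∈ A then 0 else 2 / N) ≤ |(a g : ℝ) / K - 1 / N| := by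
    intro g
    by_cases hg : g ∈ A
    · simp only [hg, if_true, add_zero]
      exact le_abs_self _
    · simp only [hg, if_false]
      rw [ha0 g hg]
      simp only [Nat.cast_zero, zero_div, zero_sub, abs_neg]
      rw [abs_of_pos (by positivity)]
      have : -(1 / N) + 2 / N = 1 / N := by ring
      rw [this]
  have hsum2 : (∑ g : Equiv.Perm (Fin (2 * m)), (((a g : ℝ) / K - 1 / N) + (if g ∈ A then 0 else 2 / N)))
      = 2 - 2 * (A.card : ℝ) / N := by
    rw [Finset.sum_add_distrib, Finset.sum_sub_distrib, ← Finset.sum_div, hsum]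
    rw [Finset.sum_const, Finset.card_univ, nsmul_eq_mul, hN]
    rw [Finset.sum_ite, Finset.sum_const_zero, zero_add, Finset.sum_const, nsmul_eq_mul]
    have hfilter : (Finset.univ.filter (fun g : Equiv.Perm (Fin (2 * m)) => ¬ g ∈ A)) = Aᶜ := by
      ext g; simp
    rw [hfilter, Finset.card_compl, Nat.cast_sub (Finset.card_le_univ _), hN]
    field_simp
    ring
  unfold Crest.ProbabilityR.Shuffle.tvFromUniform
  have hmain : 2 - 2 * K / N ≤ ∑ g : Equiv.Perm (Fin (2 * m)),
      |Crest.FinProb.uniformProb {cs : Fin t → Fin m → Bool | iterPos m t cs = ⇑g} - 1 / N| := by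
    calc 2 - 2 * K / N ≤ 2 - 2 * (A.card : ℝ) / N := by
          have : 2 * (A.card : ℝ) / N ≤ 2 * K / N := by
            apply div_le_div_of_nonneg_right _ hNpos.le
            linarith
          linarith
      _ = ∑ g : Equiv.Perm (Fin (2 * m)), (((a g : ℝ) / K - 1 / N) + (if g ∈ A then 0 else 2 / N)) :=
          hsum2.symm
      _ ≤ ∑ g : Equiv.Perm (Fin (2 * m)), |(a g : ℝ) / K - 1 / N| :=
          Finset.sum_le_sum (fun g _ => hpt g)
      _ = _ := by
          apply Finset.sum_congr rfl
          intro g _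
          rw [hprob g, hK]
  have : 1 - K / N = (1 / 2) * (2 - 2 * K / N) := by ring
  rw [this]
  exact mul_le_mul_of_nonneg_left hmain (by norm_num)

end Crest.Agent.S0223
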