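-- Statement S0324 (row 211).  Assembly by helper4 on top of Crest.Agent.TetraLib (explicit cover,
-- projection bound, area toolkit).
import Crest.Statements.S0324
import Crest.Agent.TetraLib.Area
import Crest.Agent.TetraLib.Proj
import Crest.Agent.TetraLib.Discrete

set_option autoImplicit false
open MeasureTheory
open scoped ENNReal
open Crest Crest.GeometryTopology Crest.GeometryTopology.Convex

namespace Crest.Agent.S0324

/-- The regular tetrahedron `K` with vertices `(±1, 0, 0)`, `(0, ±1, √2)` is covered by finitely many cylinders `Bᵢ + ℝ uᵢ`, each with unit direction `uᵢ` and base `Bᵢ` a triangle (convex hull of three points) in the plane `uᵢ^⊥`, whose total base area `∑ᵢ area(Bᵢ)` is smaller, by a positive margin, than half the area of the orthogonal projection of `K` onto `v^⊥` for every unit vector `v`; areas are 2-dimensional Hausdorff measure. -/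
theorem result :
    ∃ (m : ℕ) (u p q r : Fin m → EuclideanSpace ℝ (Fin 3)),
      (∀ i, ‖u i‖ = 1) ∧
      (∀ i, inner ℝ (p i) (u i) = 0 ∧ inner ℝ (q i) (u i) = 0 ∧ inner ℝ (r i) (u i) = 0) ∧
      convexHull ℝ {!₂[1, 0, 0], !₂[-1, 0, 0], !₂[0, 1, Real.sqrt 2], !₂[0, -1, Real.sqrt 2]} ⊆
        ⋃ i, {x : EuclideanSpace ℝ (Fin 3) | ∃ b ∈ convexHull ℝ {p i, q i, r i}, ∃ t : ℝ, x = b + t • u i} ∧
      ∃ δ : ℝ, 0 < δ ∧ ∀ v : EuclideanSpace ℝ (Fin 3), ‖v‖ = 1 →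
        ∑ i, (μH[(2 : ℝ)] (convexHull ℝ {p i, q i, r i})).toReal + δ ≤
          (μH[(2 : ℝ)] ((fun y => y - inner ℝ y v • v) '' convexHull ℝ {!₂[1, 0, 0], !₂[-1, 0, 0], !₂[0, 1, Real.sqrt 2], !₂[0, -1, Real.sqrt 2]})).toReal / 2 := by
  obtain ⟨m, T, -, hcov, harea⟩ := Tetra.exists_std_cover
  obtain ⟨κ, hκ, hκeq⟩ := Tetra.exists_muH_factor
  refine ⟨m, fun i => (T i).u, fun i => (T i).p, fun i => (T i).q, fun i => (T i).r,
    fun i => (T i).hu, fun i => ⟨(T i).hp, (T i).hq, (T i).hr⟩, hcov, ?_⟩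
  have hs2 : (0 : ℝ) < Real.sqrt 2 := Real.sqrt_pos.mpr (by norm_num)
  refine ⟨κ * (Real.sqrt 2 * (6 / 10 ^ 10)), by positivity, fun v hv => ?_⟩
  have hge := Tetra.proj_Kstd_ge v hv
  have hlt := Tetra.proj_Kstd_lt_top v hv
  have hproj : Real.sqrt 2 ≤ (μHE[2] ((fun y : Tetra.E3 => y - inner ℝ y v • v) '' Tetra.Kstd)).toReal :=
    (ENNReal.ofReal_le_iff_le_toReal hlt.ne).mp hge
  have h1 : ∀ s : Set Tetra.E3, (μH[(2 : ℝ)] s).toReal = κ * (μHE[2] s).toReal := by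
    intro s
    rw [hκeq s, ENNReal.toReal_mul, ENNReal.toReal_ofReal hκ.le]
  have hsum : ∑ i, (μH[(2 : ℝ)] (convexHull ℝ ({(T i).p, (T i).q, (T i).r} : Set Tetra.E3))).toReal =
      κ * ∑ i, (T i).area := by
    rw [Finset.mul_sum]
    exact Finset.sum_congr rfl (fun i _ => h1 _)
  have hR : (μH[(2 : ℝ)] ((fun y : Tetra.E3 => y - inner ℝ y v • v) '' Tetra.Kstd)).toReal =
      κ * (μHE[2] ((fun y : Tetra.E3 => y - inner ℝ y v • v) '' Tetra.Kstd)).toReal := h1 _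
  show ∑ i, (μH[(2 : ℝ)] (convexHull ℝ ({(T i).p, (T i).q, (T i).r} : Set Tetra.E3))).toReal +
      κ * (Real.sqrt 2 * (6 / 10 ^ 10)) ≤
      (μH[(2 : ℝ)] ((fun y : Tetra.E3 => y - inner ℝ y v • v) '' Tetra.Kstd)).toReal / 2
  rw [hsum, hR]
  have h2 : κ * ∑ i, (T i).area ≤ κ * (Real.sqrt 2 * (1 / 2 - 6 / 10 ^ 10)) :=
    mul_le_mul_of_nonneg_left harea hκ.le
  have h3 : κ * Real.sqrt 2 ≤ κ * (μHE[2] ((fun y : Tetra.E3 => y - inner ℝ y v • v) '' Tetra.Kstd)).toReal :=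
    mul_le_mul_of_nonneg_left hproj hκ.le
  nlinarith [h2, h3]

end Crest.Agent.S0324
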