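-- Statement S0325 (row 211).  Assembly by helper4 on top of Crest.Agent.TetraLib (explicit cover,
-- projection bound, area toolkit): part (2) pads the explicit cover with one triangle of exactly the
-- missing area and with degenerate triangles.
import Crest.Statements.S0325
import Crest.Agent.TetraLib.Area
import Crest.Agent.TetraLib.Proj
import Crest.Agent.TetraLib.Discrete

set_option autoImplicit false
open MeasureTheory
open scoped ENNReal
open Crest Crest.GeometryTopology Crest.GeometryTopology.Convex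

namespace Crest.Agent.Tetra

/-- padding triangle `conv{0, (0,1,0), (0,0,2A)}` in the plane `x = 0`, of area `A`. -/
noncomputable def padTri (A : ℝ) : TriCyl where
  u := !₂[1, 0, 0]
  p := 0
  q := !₂[0, 1, 0]
  r := !₂[0, 0, 2 * A]
  hu := by simp [EuclideanSpace.norm_eq, Fin.sum_univ_three]
  hp := by simp
  hq := by simp [PiLp.inner_apply, Fin.sum_univ_three]
  hr := by simp [PiLp.inner_apply, Fin.sum_univ_three]

theorem padTri_area (A : ℝ) (hA : 0 ≤ A) : (padTri A).area = A := by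
  unfold TriCyl.area padTri
  simp only
  rw [muHE_tri]
  have hg : gram ((!₂[0, 1, 0] : E3) - 0) ((!₂[0, 0, 2 * A] : E3) - 0) = (2 * A) ^ 2 := by
    unfold gram
    simp [EuclideanSpace.norm_eq, PiLp.inner_apply, Fin.sum_univ_three]
    rw [Real.sq_sqrt (by positivity)]
  rw [hg, Real.sqrt_sq (by positivity), ENNReal.toReal_ofReal (by positivity)]
  ring

/-- the padded family indexed by `ℕ`: the cover `T` first, then one triangle of area `A`, then
degenerate triangles. -/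
noncomputable def padFam {m0 : ℕ} (T : Fin m0 → TriCyl) (A : ℝ) (j : ℕ) : TriCyl :=
  if h : j < m0 then T ⟨j, h⟩ else padTri (if j = m0 then A else 0)

theorem padFam_sum {m0 : ℕ} (T : Fin m0 → TriCyl) (A : ℝ) (hA : 0 ≤ A) (M : ℕ) (hM : m0 + 1 ≤ M) :
    ∑ i : Fin M, (padFam T A i.val).area = ∑ i, (T i).area + A := by
  rw [Fin.sum_univ_eq_sum_range (fun j => (padFam T A j).area) M,
    ← Finset.sum_range_add_sum_Ico _ hM, Finset.sum_range_succ]
  have h1 : ∑ j ∈ Finset.range m0, (padFam T A j).area = ∑ i, (T i).area := by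
    rw [← Fin.sum_univ_eq_sum_range (fun j => (padFam T A j).area) m0]
    refine Finset.sum_congr rfl (fun i _ => ?_)
    simp [padFam, i.isLt]
  have h2 : (padFam T A m0).area = A := by
    simp [padFam, padTri_area A hA]
  have h3 : ∑ j ∈ Finset.Ico (m0 + 1) M, (padFam T A j).area = 0 := by
    refine Finset.sum_eq_zero (fun j hj => ?_)
    have hj' := (Finset.mem_Ico.mp hj).1
    have hn : ¬ j < m0 := by omega
    have hne : j ≠ m0 := by omega
    simp [padFam, hn, hne, padTri_area 0 le_rfl]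
  rw [h1, h2, h3, add_zero]

end Crest.Agent.Tetra

namespace Crest.Agent.S0325

/-- Let K be the regular tetrahedron with vertices (±1, 0, 0), (0, ±1, √2); areas are Lebesgue-normalised 2-dimensional Hausdorff measure. (1) The least area of an orthogonal projection of K onto a plane is √2: each map y ↦ y − ⟪y, v⟫ v with ‖v‖ = 1 sends K to a set of area ≥ √2, equal for some v. (2) For every 0 < ε ≤ 5·10⁻⁴, K is covered by 2⌈2/ε²⌉ cylinders Bᵢ + ℝ uᵢ, uᵢ a unit vector, Bᵢ a triangle (convex hull of three points) in uᵢ^⊥, of total area A with ‖A/√2 − 1/2 + 13 ε²/6000‖ ≤ 2 ε⁴. -/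
theorem result :
    ((∀ v : EuclideanSpace ℝ (Fin 3), ‖v‖ = 1 →
        ENNReal.ofReal (Real.sqrt 2) ≤ μHE[2] ((fun y => y - inner ℝ y v • v) '' convexHull ℝ {!₂[1, 0, 0], !₂[-1, 0, 0], !₂[0, 1, Real.sqrt 2], !₂[0, -1, Real.sqrt 2]})) ∧
      ∃ v : EuclideanSpace ℝ (Fin 3), ‖v‖ = 1 ∧
        μHE[2] ((fun y => y - inner ℝ y v • v) '' convexHull ℝ {!₂[1, 0, 0], !₂[-1, 0, 0], !₂[0, 1, Real.sqrt 2], !₂[0, -1, Real.sqrt 2]}) = ENNReal.ofReal (Real.sqrt 2)) ∧
    ∀ ε : ℝ, 0 < ε → ε ≤ 1 / 2000 →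
      ∃ (u p q r : Fin (2 * ⌈2 / ε ^ 2⌉₊) → EuclideanSpace ℝ (Fin 3)),
        (∀ i, ‖u i‖ = 1) ∧
        (∀ i, inner ℝ (p i) (u i) = 0 ∧ inner ℝ (q i) (u i) = 0 ∧ inner ℝ (r i) (u i) = 0) ∧
        convexHull ℝ {!₂[1, 0, 0], !₂[-1, 0, 0], !₂[0, 1, Real.sqrt 2], !₂[0, -1, Real.sqrt 2]} ⊆
          ⋃ i, {x : EuclideanSpace ℝ (Fin 3) | ∃ b ∈ convexHull ℝ {p i, q i, r i}, ∃ t : ℝ, x = b + t • u i} ∧
        abs ((∑ i, (μHE[2] (convexHull ℝ ({p i, q i, r i} : Set (EuclideanSpace ℝ (Fin 3))))).toReal) / Real.sqrt 2 -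
            (1 / 2 - 13 / 6000 * ε ^ 2)) ≤ 2 * ε ^ 4 := by
  refine ⟨⟨fun v hv => Tetra.proj_Kstd_ge v hv, ⟨!₂[1, 0, 0], ?_, Tetra.proj_Kstd_eq⟩⟩, ?_⟩
  · simp [EuclideanSpace.norm_eq, Fin.sum_univ_three]
  intro ε hε hε'
  obtain ⟨m0, T, hm0, hcov, harea⟩ := Tetra.exists_std_cover
  have hs2 : (0 : ℝ) < Real.sqrt 2 := Real.sqrt_pos.mpr (by norm_num)
  -- the number of cylinders
  have hε2 : ε ^ 2 ≤ (1 / 2000) ^ 2 := pow_le_pow_left₀ hε.le hε' 2
  have hε2pos : 0 < ε ^ 2 := by positivity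
  have hceil : (8000000 : ℝ) ≤ (⌈2 / ε ^ 2⌉₊ : ℝ) := by
    refine le_trans ?_ (Nat.le_ceil _)
    rw [le_div_iff₀ hε2pos]
    nlinarith
  have hceil' : 8000000 ≤ ⌈2 / ε ^ 2⌉₊ := by exact_mod_cast hceil
  have hM : m0 + 1 ≤ 2 * ⌈2 / ε ^ 2⌉₊ := by omega
  -- the missing area
  set S0 : ℝ := ∑ i, (T i).area with hS0
  set A : ℝ := Real.sqrt 2 * (1 / 2 - 13 / 6000 * ε ^ 2) - S0 with hA
  have hA0 : 0 ≤ A := by
    have h1 : (13 : ℝ) / 6000 * ε ^ 2 ≤ 6 / 10 ^ 10 := by nlinarith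
    have h2 : Real.sqrt 2 * (1 / 2 - 6 / 10 ^ 10) ≤ Real.sqrt 2 * (1 / 2 - 13 / 6000 * ε ^ 2) :=
      mul_le_mul_of_nonneg_left (by linarith) hs2.le
    linarith
  refine ⟨fun i => (Tetra.padFam T A i.val).u, fun i => (Tetra.padFam T A i.val).p,
    fun i => (Tetra.padFam T A i.val).q, fun i => (Tetra.padFam T A i.val).r,
    fun i => (Tetra.padFam T A i.val).hu,
    fun i => ⟨(Tetra.padFam T A i.val).hp, (Tetra.padFam T A i.val).hq, (Tetra.padFam T A i.val).hr⟩,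
    ?_, ?_⟩
  · intro x hx
    obtain ⟨i, hi⟩ := Set.mem_iUnion.mp (hcov hx)
    refine Set.mem_iUnion.mpr ⟨⟨i.val, by omega⟩, ?_⟩
    have : Tetra.padFam T A i.val = T i := by simp [Tetra.padFam, i.isLt]
    show x ∈ (Tetra.padFam T A i.val).carrier
    rw [this]
    exact hi
  · have hsum := Tetra.padFam_sum T A hA0 (2 * ⌈2 / ε ^ 2⌉₊) hM
    have hsum' : (∑ i : Fin (2 * ⌈2 / ε ^ 2⌉₊), (μHE[2] (convexHull ℝ
        ({(Tetra.padFam T A i.val).p, (Tetra.padFam T A i.val).q, (Tetra.padFam T A i.val).r} :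
          Set (EuclideanSpace ℝ (Fin 3))))).toReal) = S0 + A := hsum
    rw [hsum']
    have : (S0 + A) / Real.sqrt 2 - (1 / 2 - 13 / 6000 * ε ^ 2) = 0 := by
      rw [hA]
      field_simp
      ring
    rw [this, abs_zero]
    positivity

end Crest.Agent.S0325
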