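import Crest.Statements.S0326
import Crest.Agent.S0326Lib.Final

set_option autoImplicit false
open MeasureTheory
open scoped ENNReal
open Crest Crest.GeometryTopology Crest.GeometryTopology.Convex

namespace Crest.Agent.S0326

/-- Let D ⊂ ℝ² be compact, V : ℝ² → ℝ² be C¹ on an open set containing D, and L, h > 0, with tr DV(p) = 0 and −1/L² < det DV(p) ≤ 0 for p ∈ D. Let E ⊂ ℝ × ℝ² be the ruled set of points (s, p + s V(p)), p ∈ D, −L ≤ s ≤ L. For every ε > 0, finitely many squares Tᵢ = cᵢ + [0,1]aᵢ + [0,1]bᵢ (aᵢ ⊥ bᵢ of equal nonzero length) and velocities gᵢ ∈ ℝ² exist whose sheared cylinders {(s, ξ) : ξ ∈ Tᵢ + s gᵢ} cover E, with ∑ᵢ area(Tᵢ) J(gᵢ) ≤ ∫_D J(V(p)) dp + ε, where J(g) = (1 + g₁² + h² g₂²)^(−1/2). -/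
theorem result
    (D : Set (EuclideanSpace ℝ (Fin 2))) (hD : IsCompact D)
    (V : EuclideanSpace ℝ (Fin 2) → EuclideanSpace ℝ (Fin 2)) (U : Set (EuclideanSpace ℝ (Fin 2)))
    (hU : IsOpen U) (hDU : D ⊆ U) (hV : ContDiffOn ℝ 1 V U) (L h : ℝ) (hL : 0 < L) (hh : 0 < h)
    (htr : ∀ p ∈ D, LinearMap.trace ℝ _ (fderiv ℝ V p).toLinearMap = 0)
    (hdet : ∀ p ∈ D, -(L ^ 2)⁻¹ < LinearMap.det (fderiv ℝ V p).toLinearMap ∧
      LinearMap.det (fderiv ℝ V p).toLinearMap ≤ 0)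
    (ε : ℝ) (hε : 0 < ε) :
    ∃ (k : ℕ) (c a b g : Fin k → EuclideanSpace ℝ (Fin 2)),
      (∀ i, a i ≠ 0 ∧ ‖b i‖ = ‖a i‖ ∧ inner ℝ (a i) (b i) = 0) ∧
      {z : ℝ × EuclideanSpace ℝ (Fin 2) | ∃ p ∈ D, abs z.1 ≤ L ∧ z.2 = p + z.1 • V p} ⊆
        ⋃ i, {z : ℝ × EuclideanSpace ℝ (Fin 2) | ∃ x ∈ Set.Icc (0 : ℝ) 1, ∃ y ∈ Set.Icc (0 : ℝ) 1,
          z.2 = c i + x • a i + y • b i + z.1 • g i} ∧
      ∑ i, ‖a i‖ ^ 2 / Real.sqrt (1 + (g i 0) ^ 2 + h ^ 2 * (g i 1) ^ 2) ≤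
        (∫ p in D, 1 / Real.sqrt (1 + (V p 0) ^ 2 + h ^ 2 * (V p 1) ^ 2)) + ε := by
  obtain ⟨s, c, a, b, g, hsq, hcov, hcost⟩ :=
    Crest.Agent.S0326Lib.ruled_cover_finset D hD V U hU hDU hV L h hL hh htr hdet ε hε
  refine ⟨s.card, fun j => c (s.equivFin.symm j).1, fun j => a (s.equivFin.symm j).1,
    fun j => b (s.equivFin.symm j).1, fun j => g (s.equivFin.symm j).1, ?_, ?_, ?_⟩
  · intro j
    exact hsq _ (s.equivFin.symm j).2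
  · rintro z ⟨p, hp, hz1, hz2⟩
    obtain ⟨i, hi, x, hx, y, hy, hid⟩ := hcov p hp z.1 hz1
    rw [Set.mem_iUnion]
    refine ⟨s.equivFin ⟨i, hi⟩, x, hx, y, hy, ?_⟩
    simp only [Equiv.symm_apply_apply]
    rw [hz2]
    exact hid
  · have h1 : ∑ j : Fin s.card, ‖a (s.equivFin.symm j).1‖ ^ 2 /
          Real.sqrt (1 + (g (s.equivFin.symm j).1 0) ^ 2 + h ^ 2 * (g (s.equivFin.symm j).1 1) ^ 2)
        = ∑ i ∈ s, ‖a i‖ ^ 2 * Crest.Agent.S0326Lib.Jh h (g i) := by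
      rw [← Finset.sum_coe_sort s (fun i => ‖a i‖ ^ 2 * Crest.Agent.S0326Lib.Jh h (g i))]
      rw [← Equiv.sum_comp s.equivFin.symm]
      apply Finset.sum_congr rfl
      intro j _
      unfold Crest.Agent.S0326Lib.Jh
      rw [div_eq_mul_one_div]
    rw [h1]
    exact hcost

end Crest.Agent.S0326
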