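import Crest.Statements.S0327
import Crest.Agent.TetraLib.Area
import Crest.Agent.TetraLib.Proj
import Crest.Agent.TetraLib.Conv
import Crest.Agent.TetraLib.Similar

set_option autoImplicit false
open MeasureTheory
open scoped ENNReal
open Crest Crest.GeometryTopology Crest.GeometryTopology.Convex

namespace Crest.Agent.S0327

open Crest.Agent.Tetra

private theorem one_le_sqrt_two : (1 : ℝ) ≤ Real.sqrt 2 := by
  rw [show (1 : ℝ) = Real.sqrt 1 by simp]
  exact Real.sqrt_le_sqrt (by norm_num)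

/-- every projection of the similar image of the standard tetrahedron has area `≥ s² √2`. -/
private theorem proj_lower (U : E3 ≃ₗᵢ[ℝ] E3) (q : E3) (s : ℝ) (hs : 0 < s) (v : E3)
    (hv : ‖v‖ = 1) :
    s ^ 2 * Real.sqrt 2 ≤
      (μHE[2] ((fun y : E3 => y - inner ℝ y v • v) ''
        ((fun x => q + s • U x) '' Kstd))).toReal := by
  have hv' : ‖U.symm v‖ = 1 := by rw [LinearIsometryEquiv.norm_map]; exact hv
  rw [proj_image_similarity U q s hs v hv Kstd, ENNReal.toReal_mul,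
    ENNReal.toReal_ofReal (sq_nonneg s)]
  have h1 := proj_Kstd_ge (U.symm v) hv'
  have h2 := proj_Kstd_lt_top (U.symm v) hv'
  have h3 : Real.sqrt 2 ≤
      (μHE[2] ((fun y : E3 => y - inner ℝ y (U.symm v) • U.symm v) '' Kstd)).toReal := by
    rw [← ENNReal.ofReal_le_iff_le_toReal h2.ne]; exact h1
  exact mul_le_mul_of_nonneg_left h3 (sq_nonneg s)

private theorem delta_arith (S Pv s : ℝ) (hs : 0 < s) (hP : s ^ 2 * Real.sqrt 2 ≤ Pv)
    (hsum : S ≤ s ^ 2 * (Real.sqrt 2 * (1 / 2 - 6 / 10 ^ 10) + 1 / 10 ^ 10)) :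
    S + s ^ 2 / 10 ^ 10 ≤ Pv / 2 := by
  have hs2 : 0 < s ^ 2 := by positivity
  have hA : s ^ 2 ≤ s ^ 2 * Real.sqrt 2 := le_mul_of_one_le_right hs2.le one_le_sqrt_two
  nlinarith

private theorem ratio_arith (k : ℕ) (ar P : Fin k → ℝ) (s : ℝ) (hs : 0 < s)
    (har : ∀ i, 0 ≤ ar i) (hP : ∀ i, s ^ 2 * Real.sqrt 2 ≤ P i)
    (hsum : ∑ i, ar i ≤ s ^ 2 * (Real.sqrt 2 * (1 / 2 - 6 / 10 ^ 10) + 1 / 10 ^ 10)) :
    ∑ i, ar i / P i < 1 / 2 := by
  have hs2 : 0 < s ^ 2 := by positivity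
  have hr2 : 0 < Real.sqrt 2 := Real.sqrt_pos.mpr (by norm_num)
  have hA : s ^ 2 ≤ s ^ 2 * Real.sqrt 2 := le_mul_of_one_le_right hs2.le one_le_sqrt_two
  have hpos : 0 < s ^ 2 * Real.sqrt 2 := by positivity
  have h1 : ∑ i, ar i / P i ≤ ∑ i, ar i / (s ^ 2 * Real.sqrt 2) :=
    Finset.sum_le_sum (fun i _ => div_le_div_of_nonneg_left (har i) hpos (hP i))
  rw [← Finset.sum_div] at h1
  have h2 : (∑ i, ar i) / (s ^ 2 * Real.sqrt 2) < 1 / 2 := by
    rw [div_lt_iff₀ hpos]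
    nlinarith
  linarith

/-- Let K ⊂ ℝ³ be a regular tetrahedron (convex hull of four points with equal pairwise distances ℓ > 0); areas are Lebesgue-normalised 2-dimensional Hausdorff measure, π_v y = y − ⟪y, v⟫ v. (1) Finitely many cylinders Bᵢ + ℝ uᵢ, ‖uᵢ‖ = 1, with parallelogram bases Bᵢ = cᵢ + [0,1]aᵢ + [0,1]bᵢ in uᵢ^⊥ cover K, ∑ᵢ area(Bᵢ) being below half of area(π_v K) by a positive margin for all unit v, and ∑ᵢ area(Bᵢ)/area(π_{uᵢ} K) < 1/2. (2) The same with bounded relatively open subsets of the uᵢ^⊥ as bases. -/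
theorem result
    (w : Fin 4 → EuclideanSpace ℝ (Fin 3)) (ℓ : ℝ) (hℓ : 0 < ℓ)
    (hw : ∀ i j, i ≠ j → dist (w i) (w j) = ℓ) :
    (∃ (k : ℕ) (u c a b : Fin k → EuclideanSpace ℝ (Fin 3)),
      (∀ i, ‖u i‖ = 1) ∧
      (∀ i, inner ℝ (c i) (u i) = 0 ∧ inner ℝ (a i) (u i) = 0 ∧ inner ℝ (b i) (u i) = 0) ∧
      convexHull ℝ (Set.range w) ⊆ ⋃ i, {x : EuclideanSpace ℝ (Fin 3) |
        ∃ s ∈ Set.Icc (0 : ℝ) 1, ∃ t ∈ Set.Icc (0 : ℝ) 1, ∃ τ : ℝ, x = c i + s • a i + t • b i + τ • u i} ∧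
      (∃ δ : ℝ, 0 < δ ∧ ∀ v : EuclideanSpace ℝ (Fin 3), ‖v‖ = 1 →
        (∑ i, (μHE[2] {x : EuclideanSpace ℝ (Fin 3) |
            ∃ s ∈ Set.Icc (0 : ℝ) 1, ∃ t ∈ Set.Icc (0 : ℝ) 1, x = c i + s • a i + t • b i}).toReal) + δ ≤
          (μHE[2] ((fun y => y - inner ℝ y v • v) '' convexHull ℝ (Set.range w))).toReal / 2) ∧
      ∑ i, (μHE[2] {x : EuclideanSpace ℝ (Fin 3) |
            ∃ s ∈ Set.Icc (0 : ℝ) 1, ∃ t ∈ Set.Icc (0 : ℝ) 1, x = c i + s • a i + t • b i}).toReal /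
          (μHE[2] ((fun y => y - inner ℝ y (u i) • u i) '' convexHull ℝ (Set.range w))).toReal < 1 / 2) ∧
    (∃ (k : ℕ) (u : Fin k → EuclideanSpace ℝ (Fin 3)) (B : Fin k → Set (EuclideanSpace ℝ (Fin 3))),
      (∀ i, ‖u i‖ = 1) ∧
      (∀ i, Bornology.IsBounded (B i) ∧ ∃ O : Set (EuclideanSpace ℝ (Fin 3)), IsOpen O ∧
        B i = O ∩ {x | inner ℝ x (u i) = 0}) ∧
      convexHull ℝ (Set.range w) ⊆
        ⋃ i, {x : EuclideanSpace ℝ (Fin 3) | ∃ y ∈ B i, ∃ τ : ℝ, x = y + τ • u i} ∧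
      (∃ δ : ℝ, 0 < δ ∧ ∀ v : EuclideanSpace ℝ (Fin 3), ‖v‖ = 1 →
        (∑ i, (μHE[2] (B i)).toReal) + δ ≤
          (μHE[2] ((fun y => y - inner ℝ y v • v) '' convexHull ℝ (Set.range w))).toReal / 2) ∧
      ∑ i, (μHE[2] (B i)).toReal /
          (μHE[2] ((fun y => y - inner ℝ y (u i) • u i) '' convexHull ℝ (Set.range w))).toReal < 1 / 2) := by
  obtain ⟨U, q, hK⟩ := exists_similarity w ℓ hℓ hw
  rw [hK]
  have hs : 0 < ℓ / 2 := by positivity
  clear hK hw hℓ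
  generalize ℓ / 2 = s at hs ⊢
  refine ⟨?_, ?_⟩
  · -- parallelogram bases
    obtain ⟨k, u₀, c₀, a₀, b₀, hu₀, hperp₀, hcov₀, hsum₀⟩ :=
      exists_std_par_cover (1 / 10 ^ 10) (by positivity)
    have hUu : ∀ i, ‖U (u₀ i)‖ = 1 := fun i => by
      rw [LinearIsometryEquiv.norm_map]; exact hu₀ i
    have harea : ∀ i, (μHE[2] {x : E3 | ∃ σ ∈ Set.Icc (0 : ℝ) 1, ∃ t ∈ Set.Icc (0 : ℝ) 1,
          x = projU (U (u₀ i)) (q + s • U (c₀ i)) + σ • (s • U (a₀ i)) +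
            t • (s • U (b₀ i))}).toReal =
        s ^ 2 * (μHE[2] (par (c₀ i) (a₀ i) (b₀ i))).toReal := by
      intro i
      have e : {x : E3 | ∃ σ ∈ Set.Icc (0 : ℝ) 1, ∃ t ∈ Set.Icc (0 : ℝ) 1,
          x = projU (U (u₀ i)) (q + s • U (c₀ i)) + σ • (s • U (a₀ i)) + t • (s • U (b₀ i))} =
          par (projU (U (u₀ i)) (q + s • U (c₀ i))) (s • U (a₀ i)) (s • U (b₀ i)) := rfl
      have hg : gram (s • U (a₀ i)) (s • U (b₀ i)) = (s ^ 2) ^ 2 * gram (a₀ i) (b₀ i) := by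
        unfold gram
        rw [norm_smul, norm_smul, real_inner_smul_left, real_inner_smul_right,
          LinearIsometryEquiv.norm_map, LinearIsometryEquiv.norm_map,
          LinearIsometryEquiv.inner_map_map, Real.norm_eq_abs, mul_pow, mul_pow, sq_abs]
        ring
      rw [e, muHE_par, muHE_par, ENNReal.toReal_ofReal (Real.sqrt_nonneg _),
        ENNReal.toReal_ofReal (Real.sqrt_nonneg _), hg, Real.sqrt_mul (sq_nonneg _),
        Real.sqrt_sq (sq_nonneg s)]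
    have hsum : ∑ i, (μHE[2] {x : E3 | ∃ σ ∈ Set.Icc (0 : ℝ) 1, ∃ t ∈ Set.Icc (0 : ℝ) 1,
          x = projU (U (u₀ i)) (q + s • U (c₀ i)) + σ • (s • U (a₀ i)) +
            t • (s • U (b₀ i))}).toReal ≤
        s ^ 2 * (Real.sqrt 2 * (1 / 2 - 6 / 10 ^ 10) + 1 / 10 ^ 10) := by
      rw [Finset.sum_congr rfl (fun i _ => harea i), ← Finset.mul_sum]
      exact mul_le_mul_of_nonneg_left hsum₀ (sq_nonneg s)
    refine ⟨k, fun i => U (u₀ i), fun i => projU (U (u₀ i)) (q + s • U (c₀ i)),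
      fun i => s • U (a₀ i), fun i => s • U (b₀ i), hUu, ?_, ?_, ?_, ?_⟩
    · intro i
      obtain ⟨-, ha, hb⟩ := hperp₀ i
      refine ⟨inner_projU_self _ _ (hUu i), ?_, ?_⟩
      · show inner ℝ (s • U (a₀ i)) (U (u₀ i)) = 0
        rw [real_inner_smul_left, LinearIsometryEquiv.inner_map_map, ha, mul_zero]
      · show inner ℝ (s • U (b₀ i)) (U (u₀ i)) = 0
        rw [real_inner_smul_left, LinearIsometryEquiv.inner_map_map, hb, mul_zero]
    · intro x hx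
      obtain ⟨y, hy, rfl⟩ := hx
      obtain ⟨i, hi⟩ := Set.mem_iUnion.mp (hcov₀ hy)
      refine Set.mem_iUnion.mpr ⟨i, ?_⟩
      have himg := parCyl_image_similarity U q s hs (u₀ i) (c₀ i) (a₀ i) (b₀ i) (hu₀ i)
      have hmem : q + s • U y ∈ (fun x => q + s • U x) '' parCyl (u₀ i) (c₀ i) (a₀ i) (b₀ i) :=
        ⟨y, hi, rfl⟩
      rw [himg] at hmem
      exact hmem
    · exact ⟨s ^ 2 / 10 ^ 10, by positivity, fun v hv =>
        delta_arith _ _ s hs (proj_lower U q s hs v hv) hsum⟩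
    · exact ratio_arith k _ _ s hs (fun i => ENNReal.toReal_nonneg)
        (fun i => proj_lower U q s hs (U (u₀ i)) (hUu i)) hsum
  · -- relatively open bases
    obtain ⟨k, u₀, B₀, hu₀, hB₀, hcov₀, hsum₀⟩ :=
      exists_std_open_cover (1 / 10 ^ 10) (by positivity)
    have hUu : ∀ i, ‖U (u₀ i)‖ = 1 := fun i => by
      rw [LinearIsometryEquiv.norm_map]; exact hu₀ i
    have hplane : ∀ i, ∀ y ∈ B₀ i, inner ℝ y (u₀ i) = 0 := by
      intro i y hy
      obtain ⟨-, O, -, hO⟩ := hB₀ i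
      rw [hO] at hy
      exact hy.2
    have harea : ∀ i, (μHE[2] ((fun y => projU (U (u₀ i)) q + s • U y) '' B₀ i)).toReal =
        s ^ 2 * (μHE[2] (B₀ i)).toReal := by
      intro i
      rw [muHE_image_similarity U _ s hs (B₀ i), ENNReal.toReal_mul,
        ENNReal.toReal_ofReal (sq_nonneg s)]
    have hsum : ∑ i, (μHE[2] ((fun y => projU (U (u₀ i)) q + s • U y) '' B₀ i)).toReal ≤
        s ^ 2 * (Real.sqrt 2 * (1 / 2 - 6 / 10 ^ 10) + 1 / 10 ^ 10) := by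
      rw [Finset.sum_congr rfl (fun i _ => harea i), ← Finset.mul_sum]
      exact mul_le_mul_of_nonneg_left hsum₀ (sq_nonneg s)
    refine ⟨k, fun i => U (u₀ i), fun i => (fun y => projU (U (u₀ i)) q + s • U y) '' B₀ i,
      hUu, ?_, ?_, ?_, ?_⟩
    · intro i
      obtain ⟨hbd, O, hO, hBO⟩ := hB₀ i
      refine ⟨?_, (fun y => projU (U (u₀ i)) q + s • U y) '' O, ?_, ?_⟩
      · obtain ⟨C, hC⟩ := hbd.exists_norm_le
        refine isBounded_iff_forall_norm_le.mpr ⟨‖projU (U (u₀ i)) q‖ + s * C, ?_⟩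
        rintro _ ⟨y, hy, rfl⟩
        calc ‖projU (U (u₀ i)) q + s • U y‖ ≤ ‖projU (U (u₀ i)) q‖ + ‖s • U y‖ :=
              norm_add_le _ _
          _ = ‖projU (U (u₀ i)) q‖ + s * ‖y‖ := by
              rw [norm_smul, Real.norm_of_nonneg hs.le, LinearIsometryEquiv.norm_map]
          _ ≤ ‖projU (U (u₀ i)) q‖ + s * C := by
              have := mul_le_mul_of_nonneg_left (hC y hy) hs.le
              linarith
      · have hh : (fun y => projU (U (u₀ i)) q + s • U y) =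
            ⇑((U.toHomeomorph.trans (Homeomorph.smulOfNeZero s hs.ne')).trans
              (Homeomorph.addLeft (projU (U (u₀ i)) q))) := by
          funext y; rfl
        rw [hh]
        exact (Homeomorph.isOpen_image _).mpr hO
      · show (fun y => projU (U (u₀ i)) q + s • U y) '' B₀ i =
          ((fun y => projU (U (u₀ i)) q + s • U y) '' O) ∩ {x | inner ℝ x (U (u₀ i)) = 0}
        rw [hBO]
        ext x
        constructor
        · rintro ⟨y, ⟨hyO, hy0⟩, rfl⟩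
          refine ⟨⟨y, hyO, rfl⟩, ?_⟩
          have hy0' : inner ℝ y (u₀ i) = 0 := hy0
          show inner ℝ (projU (U (u₀ i)) q + s • U y) (U (u₀ i)) = 0
          rw [inner_add_left, inner_projU_self _ _ (hUu i), real_inner_smul_left,
            LinearIsometryEquiv.inner_map_map, hy0']
          ring
        · rintro ⟨⟨y, hyO, rfl⟩, hx0⟩
          refine ⟨y, ⟨hyO, ?_⟩, rfl⟩
          have hx0' : inner ℝ (projU (U (u₀ i)) q + s • U y) (U (u₀ i)) = 0 := hx0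
          rw [inner_add_left, inner_projU_self _ _ (hUu i), real_inner_smul_left,
            LinearIsometryEquiv.inner_map_map, zero_add] at hx0'
          show inner ℝ y (u₀ i) = 0
          exact (mul_eq_zero.mp hx0').resolve_left hs.ne'
    · intro x hx
      obtain ⟨y, hy, rfl⟩ := hx
      obtain ⟨i, hi⟩ := Set.mem_iUnion.mp (hcov₀ hy)
      refine Set.mem_iUnion.mpr ⟨i, ?_⟩
      have himg := setCyl_image_similarity U q s hs (u₀ i) (hu₀ i) (B₀ i) (hplane i)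
      have hmem : q + s • U y ∈ (fun x => q + s • U x) '' setCyl (u₀ i) (B₀ i) := ⟨y, hi, rfl⟩
      rw [himg] at hmem
      exact hmem
    · exact ⟨s ^ 2 / 10 ^ 10, by positivity, fun v hv =>
        delta_arith _ _ s hs (proj_lower U q s hs v hv) hsum⟩
    · exact ratio_arith k _ _ s hs (fun i => ENNReal.toReal_nonneg)
        (fun i => proj_lower U q s hs (U (u₀ i)) (hUu i)) hsum

end Crest.Agent.S0327
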