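import Crest.Statements.S0329
import Crest.Agent.S0326
import Crest.Agent.S0329Lib.Base

set_option autoImplicit false
open MeasureTheory
open scoped ENNReal
open Crest Crest.GeometryTopology Crest.GeometryTopology.Convex

namespace Crest.Agent.S0329

open Crest.Agent.S0329Lib in
/-- Let h, M > 0, D ⊂ ℝ² be compact with Lebesgue-null boundary, and V : ℝ² → ℝ² be C¹ on an open set containing D with tr DV(p) = 0 and −1/M² < det DV(p) < 0 for p ∈ D. For every ε > 0 the set of points (x, p₁ + x V₁(p), h (p₂ + x V₂(p))) ∈ ℝ³ with p ∈ D, −M ≤ x ≤ M is covered by finitely many cylinders Bᵢ + ℝ uᵢ, ‖uᵢ‖ = 1, with bases Bᵢ bounded relatively open subsets of the planes uᵢ^⊥ and ∑ᵢ area(Bᵢ) ≤ h ∫_D (1 + V₁² + h² V₂²)^(−1/2) + ε (areas: normalised 2-dimensional Hausdorff measure). -/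
theorem result
    (h M : ℝ) (hh : 0 < h) (hM : 0 < M) (D : Set (EuclideanSpace ℝ (Fin 2))) (hD : IsCompact D)
    (hbd : volume (frontier D) = 0)
    (V : EuclideanSpace ℝ (Fin 2) → EuclideanSpace ℝ (Fin 2)) (U : Set (EuclideanSpace ℝ (Fin 2)))
    (hU : IsOpen U) (hDU : D ⊆ U) (hV : ContDiffOn ℝ 1 V U)
    (htr : ∀ p ∈ D, LinearMap.trace ℝ _ (fderiv ℝ V p).toLinearMap = 0)
    (hdet : ∀ p ∈ D, -(M ^ 2)⁻¹ < LinearMap.det (fderiv ℝ V p).toLinearMap ∧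
      LinearMap.det (fderiv ℝ V p).toLinearMap < 0)
    (ε : ℝ) (hε : 0 < ε) :
    ∃ (k : ℕ) (u : Fin k → EuclideanSpace ℝ (Fin 3)) (B : Fin k → Set (EuclideanSpace ℝ (Fin 3))),
      (∀ i, ‖u i‖ = 1) ∧
      (∀ i, Bornology.IsBounded (B i) ∧ ∃ O : Set (EuclideanSpace ℝ (Fin 3)), IsOpen O ∧
        B i = O ∩ {x | inner ℝ x (u i) = 0}) ∧
      {z : EuclideanSpace ℝ (Fin 3) | ∃ p ∈ D, ∃ x : ℝ, abs x ≤ M ∧
          z = !₂[x, p 0 + x * V p 0, h * (p 1 + x * V p 1)]} ⊆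
        ⋃ i, {z : EuclideanSpace ℝ (Fin 3) | ∃ y ∈ B i, ∃ τ : ℝ, z = y + τ • u i} ∧
      ∑ i, (μHE[2] (B i)).toReal ≤
        h * (∫ p in D, 1 / Real.sqrt (1 + (V p 0) ^ 2 + h ^ 2 * (V p 1) ^ 2)) + ε := by
  obtain ⟨k, c, a, b, g, hab, hcov, hsum⟩ :=
    Crest.Agent.S0326.result D hD V U hU hDU hV M h hM hh htr
      (fun p hp => ⟨(hdet p hp).1, (hdet p hp).2.le⟩) (ε / (2 * h)) (by positivity)
  have hη : 0 < ε / (2 * ((k : ℝ) + 1)) := by positivity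
  have key : ∀ i : Fin k, ∃ O : Set (EuclideanSpace ℝ (Fin 3)), IsOpen O ∧
      s329base h (c i) (a i) (b i) (g i) ⊆ O ∧
      Bornology.IsBounded (O ∩ {x | inner ℝ x (s329u h (g i)) = 0}) ∧
      (μHE[2] (O ∩ {x | inner ℝ x (s329u h (g i)) = 0})).toReal ≤
        (μHE[2] (s329base h (c i) (a i) (b i) (g i))).toReal + ε / (2 * ((k : ℝ) + 1)) :=
    fun i => s329_exists_open_base (s329u_ne_zero h (g i)) (s329base_isCompact h _ _ _ _)
      (s329base_inner h _ _ _ _) hη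
  choose O hO1 hO2 hO3 hO4 using key
  refine ⟨k, fun i => s329u h (g i), fun i => O i ∩ {x | inner ℝ x (s329u h (g i)) = 0},
    fun i => s329u_norm h (g i), fun i => ⟨hO3 i, O i, hO1 i, rfl⟩, ?_, ?_⟩
  · rintro z ⟨p, hp, x, hx, rfl⟩
    have hmem : ((x, p + x • V p) : ℝ × EuclideanSpace ℝ (Fin 2)) ∈
        {z : ℝ × EuclideanSpace ℝ (Fin 2) | ∃ p ∈ D, abs z.1 ≤ M ∧ z.2 = p + z.1 • V p} :=
      ⟨p, hp, hx, rfl⟩
    obtain ⟨i, α, hα, β, hβ, hξ⟩ := Set.mem_iUnion.1 (hcov hmem)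
    obtain ⟨y, hy, τ, hτ⟩ := s329_mem_cyl h (c i) (a i) (b i) (g i) (p + x • V p) x α β hα hβ hξ
    refine Set.mem_iUnion.2 ⟨i, y, ⟨hO2 i hy, s329base_inner h _ _ _ _ y hy⟩, τ, ?_⟩
    rw [← hτ]
    simp
  · have h1 : ∀ i : Fin k, (μHE[2] (O i ∩ {x | inner ℝ x (s329u h (g i)) = 0})).toReal ≤
        h * (‖a i‖ ^ 2 / Real.sqrt (1 + (g i 0) ^ 2 + h ^ 2 * (g i 1) ^ 2)) +
          ε / (2 * ((k : ℝ) + 1)) := by
      intro i
      refine (hO4 i).trans_eq ?_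
      rw [s329_area_base h hh (c i) (a i) (b i) (g i) (hab i).2.2 (hab i).2.1,
        ENNReal.toReal_ofReal (by have := s329N_pos h (g i); positivity)]
      simp only [s329N]
      ring
    calc ∑ i, (μHE[2] (O i ∩ {x | inner ℝ x (s329u h (g i)) = 0})).toReal
        ≤ ∑ i : Fin k, (h * (‖a i‖ ^ 2 / Real.sqrt (1 + (g i 0) ^ 2 + h ^ 2 * (g i 1) ^ 2)) +
            ε / (2 * ((k : ℝ) + 1))) := Finset.sum_le_sum (fun i _ => h1 i)
      _ = h * ∑ i : Fin k, ‖a i‖ ^ 2 / Real.sqrt (1 + (g i 0) ^ 2 + h ^ 2 * (g i 1) ^ 2) +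
            (k : ℝ) * (ε / (2 * ((k : ℝ) + 1))) := by
          rw [Finset.sum_add_distrib, ← Finset.mul_sum]
          simp
      _ ≤ h * ((∫ p in D, 1 / Real.sqrt (1 + (V p 0) ^ 2 + h ^ 2 * (V p 1) ^ 2)) + ε / (2 * h)) +
            ε / 2 := by
          have hk : (k : ℝ) * (ε / (2 * ((k : ℝ) + 1))) ≤ ε / 2 := by
            have hk0 : (0 : ℝ) ≤ k := Nat.cast_nonneg k
            rw [show (k : ℝ) * (ε / (2 * ((k : ℝ) + 1))) = (ε / 2) * ((k : ℝ) / ((k : ℝ) + 1)) by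
              field_simp]
            have : (k : ℝ) / ((k : ℝ) + 1) ≤ 1 := by
              rw [div_le_one (by positivity)]
              linarith
            nlinarith [half_pos hε]
          exact add_le_add (mul_le_mul_of_nonneg_left hsum hh.le) hk
      _ = h * (∫ p in D, 1 / Real.sqrt (1 + (V p 0) ^ 2 + h ^ 2 * (V p 1) ^ 2)) + ε := by
          field_simp
          ring

end Crest.Agent.S0329
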