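import Crest.Statements.S0423
import Crest.Agent.S0423Lib.Upper
import Crest.Agent.S0423Lib.Sharp

set_option autoImplicit false
open Crest Crest.AlgGeometry

namespace Crest.Agent.S0423

open Crest.Agent.S0423Lib in
/-- the integral in the statement is `1 - J N a phi`. -/
theorem integral_eq (N : ℕ) (a : Fin N → ℝ) :
    ∫ x in Set.pi Set.univ (fun _ : Fin N => Set.Ioi (0 : ℝ)),
        Crest.AlgGeometry.truncExpWeight (4 / 3 + ∑ i, a i * x i) * Real.exp (-∑ i, x i)
      = 1 - J N a phi := by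
  rw [← J_one_sub N a phi phi_continuous.measurable 1 phi_abs_le]
  unfold J phi
  simp only [sub_sub_cancel]

open Crest.Agent.S0423Lib in
theorem const_eq : Real.exp (4 / 3) / (4 / 3) * (1 - mstar)
    = 3 / 4 * Real.exp (4 / 3) - Real.exp 1 / 3 := by
  unfold mstar
  have h : Real.exp (4 / 3) * Real.exp (-(1 / 3)) = Real.exp 1 := by
    rw [← Real.exp_add]; norm_num
  have : Real.exp (4 / 3) / (4 / 3) * (1 - 4 / 9 * Real.exp (-(1 / 3)))
      = 3 / 4 * Real.exp (4 / 3) - 1 / 3 * (Real.exp (4 / 3) * Real.exp (-(1 / 3))) := by ring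
  rw [this, h]; ring

/-- For independent mean-one exponential random variables `X_1, …, X_N` (written as an integral over the positive orthant against the density `exp (-(x_1 + ⋯ + x_N))`), real coefficients `a_1, …, a_N` summing to zero, and the weight `g = truncExpWeight`, the quantity `(e^{4/3} / (4/3)) · E[g(4/3 + a_1 X_1 + ⋯ + a_N X_N)]` has supremum over all `N ≥ 1` and all such `a` exactly `(3/4) e^{4/3} − e/3`: it never exceeds this value, and comes within any `ε > 0` of it for some `N` and `a`. -/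
theorem result :
    (∀ (N : ℕ) (a : Fin N → ℝ), 1 ≤ N → ∑ i, a i = 0 →
      Real.exp (4 / 3) / (4 / 3) *
          ∫ x in Set.pi Set.univ (fun _ : Fin N => Set.Ioi (0 : ℝ)),
            Crest.AlgGeometry.truncExpWeight (4 / 3 + ∑ i, a i * x i) * Real.exp (-∑ i, x i)
        ≤ 3 / 4 * Real.exp (4 / 3) - Real.exp 1 / 3) ∧
    (∀ ε : ℝ, 0 < ε → ∃ (N : ℕ) (a : Fin N → ℝ), 1 ≤ N ∧ ∑ i, a i = 0 ∧
      3 / 4 * Real.exp (4 / 3) - Real.exp 1 / 3 - ε <
        Real.exp (4 / 3) / (4 / 3) *
          ∫ x in Set.pi Set.univ (fun _ : Fin N => Set.Ioi (0 : ℝ)),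
            Crest.AlgGeometry.truncExpWeight (4 / 3 + ∑ i, a i * x i) * Real.exp (-∑ i, x i)) := by
  have hK : (0 : ℝ) < Real.exp (4 / 3) / (4 / 3) := by positivity
  constructor
  · intro N a _ ha
    rw [integral_eq, ← const_eq]
    have := Crest.Agent.S0423Lib.J_phi_ge N a ha
    exact mul_le_mul_of_nonneg_left (by linarith) hK.le
  · intro ε hε
    obtain ⟨N, a, hN, ha, hJ⟩ :=
      Crest.Agent.S0423Lib.sharp (ε / (Real.exp (4 / 3) / (4 / 3))) (by positivity)
    refine ⟨N, a, hN, ha, ?_⟩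
    rw [integral_eq, ← const_eq]
    have h1 : Real.exp (4 / 3) / (4 / 3) * (ε / (Real.exp (4 / 3) / (4 / 3))) = ε := by
      field_simp
    have h2 : Real.exp (4 / 3) / (4 / 3) * (1 - Crest.Agent.S0423Lib.mstar) - ε
        = Real.exp (4 / 3) / (4 / 3) *
          (1 - (Crest.Agent.S0423Lib.mstar + ε / (Real.exp (4 / 3) / (4 / 3)))) := by
      rw [mul_sub, mul_sub, mul_add, h1]; ring
    rw [h2]
    exact mul_lt_mul_of_pos_left (by linarith) hK

end Crest.Agent.S0423
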